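import Vale.Agent.Lib.P100.Defs
import Vale.Agent.Lib.P100.Singular
import Vale.Agent.Lib.P100.Bootstrap

namespace Vale.Agent.Results.P100.SerrinRegion

open Laplacian InnerProductSpace Filter Topology Vale.Agent.Lib.P100

/-- one half of the system with a weight exponent `A ≤ -2` is impossible in dimension `≥ 3`. -/
lemma half_singular {n : ℕ} (hn : 3 ≤ n) {p A : ℝ} (hp : 0 < p) (hA : A ≤ -2)
    {u v : EuclideanSpace ℝ (Fin n) → ℝ} (hcu : Continuous u) (hcv : Continuous v)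
    (hsu : ContDiffOn ℝ 2 u {0}ᶜ) (hpu : ∀ x, 0 < u x) (hpv : ∀ x, 0 < v x)
    (heq : ∀ x, x ≠ 0 → -(Δ u x) = ‖x‖ ^ A * (v x) ^ p) : False := by
  have hK : IsCompact (Metric.closedBall (0 : EuclideanSpace ℝ (Fin n)) (Real.exp (-1))) :=
    isCompact_closedBall 0 _
  have hKne : (Metric.closedBall (0 : EuclideanSpace ℝ (Fin n)) (Real.exp (-1))).Nonempty :=
    ⟨0, by simp [(Real.exp_pos _).le]⟩
  obtain ⟨y0, -, hy0⟩ := hK.exists_isMinOn hKne hcv.continuousOn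
  obtain ⟨y1, -, hy1⟩ := hK.exists_isMaxOn hKne hcu.continuousOn
  have hv0 : 0 < v y0 := hpv y0
  refine no_bounded_singular (E := EuclideanSpace ℝ (Fin n)) (u := u) (c := (v y0) ^ p) (U := u y1)
    (by simpa using hn) (Real.rpow_pos_of_pos hv0 p) ?_ ?_ ?_ ?_
  · intro x hx
    exact hsu.contDiffAt (isOpen_compl_singleton.mem_nhds hx)
  · intro x _ _
    exact (hpu x).le
  · intro x _ hx
    exact hy1 (by simpa using hx)
  · intro x hx0 hx
    have hxn : 0 < ‖x‖ := norm_pos_iff.2 hx0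
    have hx1 : ‖x‖ ≤ 1 := hx.trans (by
      rw [← Real.exp_zero]; exact Real.exp_le_exp.2 (by norm_num))
    have h1 : ‖x‖ ^ (-2 : ℝ) ≤ ‖x‖ ^ A := Real.rpow_le_rpow_of_exponent_ge hxn hx1 hA
    have h2 : ‖x‖ ^ (-2 : ℝ) = 1 / ‖x‖ ^ 2 := by
      rw [Real.rpow_neg hxn.le, one_div]
      congr 1
      exact_mod_cast Real.rpow_natCast ‖x‖ 2
    have h3 : (v y0) ^ p ≤ (v x) ^ p :=
      Real.rpow_le_rpow hv0.le (hy0 (by simpa using hx)) hp.le
    have h4 : (v y0) ^ p / ‖x‖ ^ 2 ≤ ‖x‖ ^ A * (v x) ^ p := by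
      have h5 : (v y0) ^ p / ‖x‖ ^ 2 = ‖x‖ ^ (-2 : ℝ) * (v y0) ^ p := by
        rw [h2]; ring
      rw [h5]
      exact mul_le_mul h1 h3 (Real.rpow_nonneg hv0.le p) (Real.rpow_nonneg hxn.le A)
    have := heq x hx0
    linarith

theorem result (n : ℕ) (hn : 2 ≤ n) (p q A B : ℝ) (hp : 0 < p) (hq : 0 < q)
    (h : n = 2 ∨ A ≤ -2 ∨ B ≤ -2 ∨
      ((n : ℝ) - 2) * (p * q - 1) < (A + 2) + p * (B + 2) ∨
      ((n : ℝ) - 2) * (p * q - 1) < (B + 2) + q * (A + 2)) :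
    ¬ ∃ u v : EuclideanSpace ℝ (Fin n) → ℝ, IsPositiveEntireSolution n p q A B u v := by
  rintro ⟨u, v, hcu, hcv, hsu, hsv, hpu, hpv, hequ, heqv⟩
  have hu2 : ∀ x, x ≠ 0 → ContDiffAt ℝ 2 u x := fun x hx =>
    hsu.contDiffAt (isOpen_compl_singleton.mem_nhds hx)
  have hv2 : ∀ x, x ≠ 0 → ContDiffAt ℝ 2 v x := fun x hx =>
    hsv.contDiffAt (isOpen_compl_singleton.mem_nhds hx)
  by_cases hn2 : n = 2
  · subst hn2
    refine no_pos_superharmonic_dim_two (E := EuclideanSpace ℝ (Fin 2)) (u := u) (by simp) hu2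
      (fun x _ => hpu x) ?_
    intro x hx
    have hxn : 0 < ‖x‖ := norm_pos_iff.2 hx
    have h1 : 0 < ‖x‖ ^ A * (v x) ^ p :=
      mul_pos (Real.rpow_pos_of_pos hxn A) (Real.rpow_pos_of_pos (hpv x) p)
    have := hequ x hx
    linarith
  have hn3 : 3 ≤ n := by omega
  by_cases hA : A ≤ -2
  · exact half_singular hn3 hp hA hcu hcv hsu hpu hpv hequ
  by_cases hB : B ≤ -2
  · exact half_singular hn3 hq hB hcv hcu hsv hpv hpu heqv
  rw [not_le] at hA hB
  have hfin : Module.finrank ℝ (EuclideanSpace ℝ (Fin n)) = n := by simp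
  rcases h with h | h | h | h | h
  · exact hn2 h
  · linarith
  · linarith
  · exact no_solution_serrin (E := EuclideanSpace ℝ (Fin n)) (by rw [hfin]; exact hn3) hp hq hA hB
      hu2 hv2 (fun x _ => hpu x) (fun x _ => hpv x) hequ heqv (by rw [hfin]; exact h)
  · exact no_solution_serrin (E := EuclideanSpace ℝ (Fin n)) (by rw [hfin]; exact hn3) hq hp hB hA
      hv2 hu2 (fun x _ => hpv x) (fun x _ => hpu x) heqv hequ (by
        rw [hfin, mul_comm q p]; exact h)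

end Vale.Agent.Results.P100.SerrinRegion
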